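import Crest.Agent.R165.D5.Cons
import Crest.Agent.R165.D1.Base

/-! # R165/D5 (owner helper31): algebra of the plane flow -/

set_option autoImplicit false
noncomputable section
open Classical

namespace Crest.Agent.R165.D5

theorem geoZ_d : geoZ.d = supd := exists_geoZ.choose_spec.1
theorem geoZ_ball : geoZ.ball = box := exists_geoZ.choose_spec.2

/-- the kept local potential -/
def qq (u : ℝ × ℝ) (x : Site) : Al := u.1 • mX wPl x + u.2 • kX wPl x

/-- average over the small polymers through `x` -/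
def Fx (l : ℕ) (K : Finset Site → Al) (x : Site) : Al :=
  ∑ Y ∈ (box x (2 * l)).powerset, if geoZ.Small l Y ∧ x ∈ Y then ((Y.card : ℝ)⁻¹) • K Y else 0

/-- the increments of the two couplings -/
def del (l : ℕ) (K : Finset Site → Al) : ℝ × ℝ := (nuF (Fx l K 0 : Gr Ix), zF 0 (Fx l K 0 : Gr Ix))

def Sym (s : St Site Al) : Prop :=
  s.Rel rotS rotA Set.univ s ∧ s.Rel refS refA Set.univ s ∧ ∀ a, s.Rel (· + a) (gmapE (shiftV a)) Set.univ s

/-! ### part a -/

/-- `CliffordAlgebra.involute_eq_of_mem_even` -/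
theorem toEv_of_eq {I J : Type} {T : Gr I →ₗ[ℝ] Gr J} {F : Ev I} {G : Ev J} (h : T (F : Gr I) = (G : Gr J)) : toEv T F = G := by
  apply Subtype.ext
  change (1 / 2 : ℝ) • (T (F : Gr I) + CliffordAlgebra.involute (T (F : Gr I))) = (G : Gr J)
  rw [h, CliffordAlgebra.involute_eq_of_mem_even G.2]
  module

theorem bulk_plane (p : Par) (R : ℕ) (Γ : ℕ → ℝ) (j : ℕ) (x : Site) : (gPl0 R Γ).Bulk p j x := by
  refine ⟨fun b hb => ?_, abs_of_pos tc_pos.1⟩
  rcases hb with hb | hb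
  · exact absurd hb (Set.notMem_empty b)
  · exact absurd hb (Finset.notMem_empty b)

/-- `sgn ∅ x y = 1`, `gaugeV 1 = id` (`Finsupp.lhom_ext'` / `Finsupp.linearCombination_single`), `gmap_id` -/
theorem loc2G_plane (p : Par) (R : ℕ) (Γ : ℕ → ℝ) (j : ℕ) (x : Site) : (gPl0 R Γ).loc2G p j x = loc2 x := by
  have h1 : gaugeV (sgn (gPl0 R Γ).S x) = LinearMap.id := by
    refine Finsupp.lhom_ext' fun i => LinearMap.ext_ring ?_
    have : ∀ y, sgn (gPl0 R Γ).S x y = 1 := fun y => by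
      change sgn ∅ x y = 1
      simp [sgn]
    rcases i with i | ⟨k, b⟩ <;> simp [gaugeV, vmap, this, dl, dz]
  rw [Geom.loc2G, if_pos (bulk_plane p R Γ j x), h1]
  refine LinearMap.ext fun F => ?_
  simp only [LinearMap.comp_apply, AlgHom.toLinearMap_apply, gmap_id]

theorem mvG_plane (p : Par) (R : ℕ) (Γ : ℕ → ℝ) (j : ℕ) (x : Site) : (gPl0 R Γ).mvG p j x = 0 := by
  change ∑ k ∈ Finset.range 0, _ = _
  rw [Finset.sum_range_zero]

/-- `loc2_mX` -/
theorem loc2_qq (u : ℝ × ℝ) (x : Site) : toEv (loc2 x) (qq u x) = qq u x := by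
  refine toEv_of_eq ?_
  have h := loc2_mX x
  simp only [qq, Subalgebra.coe_add, Subalgebra.coe_smul, map_add, map_smul, h.1, h.2.1]

/-- `mu C (θ_a θ_b) = θ_a θ_b + const` (`mu_iota_mul`, `mu_one`, `ctr_iota_mul`), `cstA` kills `θ_a` (`gmap_iota`) and fixes constants -/
theorem mu_sub_cst (C : Ix → Ix → ℝ) (a b : HE) :
    muE C (th2 (Sum.inl a) (Sum.inl b)) - cstA (muE C (th2 (Sum.inl a) (Sum.inl b))) = th2 (Sum.inl a) (Sum.inl b) := by
  apply Subtype.ext
  have h1 : ∀ c : HE, vmap (Sum.elim (fun _ => 0) fun p : ℕ × Bool => (dz p.1 p.2 : GV Ix))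
      (Finsupp.single (Sum.inl c : Ix) (1 : ℝ)) = 0 := fun c => by simp [vmap]
  have h2 : mu C (th (Sum.inl b : Ix)) = th (Sum.inl b : Ix) := by
    have := mu_iota_mul C (Finsupp.single (Sum.inl b : Ix) 1) 1
    rw [mul_one, mu_one, mul_one] at this
    rw [th, this]
    exact add_eq_left.2 (ctr_one _)
  change mu C (th (Sum.inl a : Ix) * th (Sum.inl b : Ix)) -
    gmap (vmap (Sum.elim (fun _ => 0) fun p : ℕ × Bool => (dz p.1 p.2 : GV Ix)))
      (mu C (th (Sum.inl a : Ix) * th (Sum.inl b : Ix))) = th (Sum.inl a : Ix) * th (Sum.inl b : Ix)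
  rw [th, mu_iota_mul, h2, th, CliffordAlgebra.contractLeft_ι, map_add, map_mul, gmap_iota, h1, map_zero, zero_mul,
    AlgHom.commutes, zero_add, add_sub_cancel_right]

/-- `sp_loc_mu`; the map `F ↦ muE C F - cstA (muE C F) - F` is linear and kills `eM`, `a0M` (`mu_sub_cst`), hence `mX`, `kX`, `qq` -/
theorem plane_fix (p : Par) (R : ℕ) (Γ : ℕ → ℝ) (j : ℕ) (u : ℝ × ℝ) (x : Site) :
    ((gPl0 R Γ).sp p j).mu (qq u x) - ((gPl0 R Γ).sp p j).loc x (((gPl0 R Γ).sp p j).mu (qq u x)) = 0 := by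
  rw [sp_loc_mu, loc2G_plane, mvG_plane, loc2_qq]
  have h0 : toEv (0 : Gr Ix →ₗ[ℝ] Gr Ix) (qq u x) = 0 := toEv_of_eq (by simp)
  set C := (gPl0 R Γ).Cov p j
  let L : Al →ₗ[ℝ] Al := muE C - cstA.toLinearMap ∘ₗ muE C - LinearMap.id
  have h1 : ∀ a b : HE, L (th2 (Sum.inl a) (Sum.inl b)) = 0 := fun a b => sub_eq_zero.2 (mu_sub_cst C a b)
  have h2 : ∀ e, L (eM Sum.inl e) = 0 := fun e => h1 _ _
  have h3 : L (a0M Sum.inl x) = 0 := by
    rw [a0M, map_sum]
    refine Finset.sum_eq_zero fun α _ => ?_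
    rw [map_sum]
    refine Finset.sum_eq_zero fun β _ => ?_
    split_ifs
    · exact h1 _ _
    · exact map_zero L
  have h4 : L (qq u x) = 0 := by
    simp only [qq, mX, kX, map_add, map_smul, map_sum, h2, h3, smul_zero, Finset.sum_const_zero, add_zero]
  rw [h0, add_zero, ← sub_sub]
  exact h4

/-! ### part b -/

/-- `gmap T` preserves `⋀[ℝ]^i` (`ExteriorAlgebra.exteriorPower`, `Submodule.pow_induction_on_left`), then
`DirectSum.Decomposition.inductionOn` / `GradedAlgebra.proj_apply`, `DirectSum.decompose_of_mem_same`, `decompose_of_mem_ne` -/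
theorem deg2_gmap {I J : Type} (T : GV I →ₗ[ℝ] GV J) (F : Gr I) : deg2 (gmap T F) = gmap T (deg2 F) := by
  exact D1.deg2_gmap T F

theorem algb_tr (a : Site) (f : Fn) : D1.tr (shiftV a) (extF f) = extF (shift a f) := by
  funext i
  rcases i with i | p <;> simp [D1.tr, pr, shiftV, vmap, dl, dz, extF, shift]
theorem algb_cSol (a : Site) (c : ℂ) : shift a (cSol c) = cSol c := rfl
theorem algb_fOf (a x : Site) (G : ℂ → ℂ) : shift a (fOf (x + a) G) = fOf x G := by
  funext i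
  simp only [shift, fOf, add_sub_add_right_eq_sub]
  rfl

/-- `gmap_mu` with `S = univ` (`mem_supA_univ`, `bil_single`), `aug (gmap T x) = aug x` -/
theorem ev2_shift (a : Site) (f f' : Fn) (F : Gr Ix) :
    ev2 (extF f) (extF f') (gmap (shiftV a) F) = ev2 (extF (shift a f)) (extF (shift a f')) F := by
  rw [D1.ev2_gmap, algb_tr, algb_tr]

/-- `shift a (cSol c) = cSol c`, `shift a (fOf (x + a) G) = fOf x G` -/
theorem nuF_shift (a : Site) (F : Gr Ix) : nuF (gmap (shiftV a) F) = nuF F := by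
  simp only [nuF, nu0, LinearMap.smul_apply, ev2_shift, algb_cSol]

theorem zF_shift (a x : Site) (F : Gr Ix) : zF (x + a) (gmap (shiftV a) F) = zF x F := by
  simp only [zF, z0, nu0, LinearMap.smul_apply, LinearMap.sub_apply, LinearMap.add_apply, ev2_shift, algb_cSol,
    algb_fOf]

/-! ### part c -/

/-- reindex by `Y ↦ Y.image φ` (`Finset.sum_bij` or `Finset.sum_nbij`; `box (φ x) r = (box x r).image φ`, `Finset.powerset_image`, `sum_image`) -/
theorem Fx_rel {φ : Site → Site} (hb : Function.Bijective φ) (hd : ∀ x y, supd (φ x) (φ y) = supd x y) (Φ : Al →ₐ[ℝ] Al)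
    {K : Finset Site → Al} (hK : ∀ Z : Finset Site, K (Z.image φ) = Φ (K Z)) (l : ℕ) (x : Site) :
    Fx l K (φ x) = Φ (Fx l K x) := by
  have h1 : box (φ x) (2 * l) = (box x (2 * l)).image φ := by
    ext y
    obtain ⟨y, rfl⟩ := hb.2 y
    rw [hb.1.mem_finset_image, B3.mem_box, B3.mem_box, hd]
  rw [Fx, Fx, h1, Finset.powerset_image, Finset.sum_image (Finset.image_injective hb.1).injOn, map_sum]
  refine Finset.sum_congr rfl fun Y _ => ?_
  have h2 : geoZ.Small l (Y.image φ) ↔ geoZ.Small l Y := by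
    simp only [Geo.Small, Finset.image_nonempty, Finset.forall_mem_image, geoZ_d, hd]
  simp only [h2, hb.1.mem_finset_image, Finset.card_image_of_injective _ hb.1, hK]
  split_ifs
  · rw [map_smul]
  · rw [map_zero]

/-- only `Y = {x}` contributes to the second part (`sgl_single`, `sgl_eq_zero`, `Geo.small_single`) -/
theorem Fx_sgl (l : ℕ) (K : Finset Site → Al) (q : Site → Al) (x : Site) :
    Fx l (fun Y => K Y + sgl q Y) x = Fx l K x + q x := by
  have h1 : q x = Fx l (sgl q) x := by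
    rw [Fx, Finset.sum_eq_single_of_mem {x}
      (Finset.mem_powerset.2 (Finset.singleton_subset_iff.2 (B3.mem_box.2 ((supd_self x).trans_le (Nat.zero_le _)))))
      fun Y _ hY => ite_eq_right_iff.2 fun h => by
        rw [sgl_eq_zero q fun y hy => (hY (by rw [hy] at h ⊢; rw [Finset.mem_singleton.1 h.2])).elim, smul_zero],
      if_pos ⟨geoZ.small_single l x, Finset.mem_singleton_self x⟩, sgl_single]
    simp
  rw [h1, Fx, Fx, Fx, ← Finset.sum_add_distrib]
  refine Finset.sum_congr rfl fun Y _ => ?_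
  split_ifs
  · rw [smul_add]
  · rw [add_zero]

theorem algc1_q (p : Par) (R : ℕ) (Γ : ℕ → ℝ) (V : Finset Site → ℝ) (u : ℝ × ℝ) (x : Site) :
    qq u x = u.1 • ((gPl0 R Γ).s0 p (1, 0) 0 V).q x + u.2 • ((gPl0 R Γ).s0 p (0, 1) 0 V).q x := by
  have h : ∀ α, x + dv α ∈ (gPl0 R Γ).Λ ∧ |(gPl0 R Γ).w (edgeOf x α)| = tc := fun α =>
    ⟨trivial, abs_of_pos B3.site_tc_bd.2.2.1⟩
  rw [s0_q_bulk (𝔤 := gPl0 R Γ) (c := (1, 0)) (by norm_num) p 0 V (Set.mem_univ x) h,
    s0_q_bulk (𝔤 := gPl0 R Γ) (c := (0, 1)) (by norm_num) p 0 V (Set.mem_univ x) h]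
  simp only [one_smul, zero_smul, add_zero, zero_add]
  rfl

/-- trick: `mX wPl = (s0 p (1, 0) 0 V).q` and `kX wPl = (s0 p (0, 1) 0 V).q` for `gPl0` (`s0_q_bulk`), then `s0_symm` (`St.Rel.q`) -/
theorem qq_symm {p : Par} (hp : p.OK) {R : ℕ} {V : Finset Site → ℝ} (hV : PotOK R V) (u : ℝ × ℝ) (x : Site) :
    qq u (rotS x) = rotA (qq u x) ∧ qq u (refS x) = refA (qq u x) ∧ ∀ a, qq u (x + a) = gmapE (shiftV a) (qq u x) := by
  obtain ⟨h1, h2, h3⟩ := s0_symm hp hV (fun _ => 0) (1, 0) 0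
  obtain ⟨h4, h5, h6⟩ := s0_symm hp hV (fun _ => 0) (0, 1) 0
  simp only [algc1_q p R (fun _ => 0) V, map_add, map_smul]
  exact ⟨by rw [h1.q x trivial, h4.q x trivial], by rw [h2.q x trivial, h5.q x trivial],
    fun a => by rw [← (h3 a).q x trivial, ← (h6 a).q x trivial]⟩

theorem lc_mono (p : Par) (hp : p.OK) (𝔤 : Geom) {i j : ℕ} (h : i ≤ j) (Z : Finset Site) : 𝔤.Lc p i Z ≤ 𝔤.Lc p j Z := by
  have h1 : p.rho i ≤ p.rho j := by
    have := Nat.mul_le_mul_left p.l0 (Nat.pow_le_pow_right (show 0 < p.L by have := hp.1; omega) h)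
    unfold Par.rho Par.l
    omega
  exact inf_le_inf_right _ fun F hF => supA_mono (fun a ha b hb => (ha b hb).imp fun y hy => ⟨hy.1, hy.2.trans h1⟩) hF

/-- the same trick with `s0_lcl`, `initOK_plane` (dummy `V = 0`), `lc_mono` -/
theorem qq_mem {R : ℕ} {k : Cons} (hk : ConsOK R k) (Γ : ℕ → ℝ) (j : ℕ) (u : ℝ × ℝ) (x : Site) :
    qq u x ∈ (gPl0 R Γ).Lc k.p j {x} := by
  rw [algc1_q k.p R Γ fun _ => 0]
  have h := fun c => lc_mono k.p hk.pok (gPl0 R Γ) j.zero_le {x}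
    ((s0_lcl hk.pok hk.l0.2 (initOK_plane hk c Γ Γ (0, 0)).1 0 fun _ => 0).q x)
  exact add_mem (Subalgebra.smul_mem _ (h _) _) (Subalgebra.smul_mem _ (h _) _)

theorem c2_shift {s : St Site Al} (hs : Sym s) (l : ℕ) (x : Site) : Fx l s.K x = gmapE (shiftV x) (Fx l s.K 0) := by
  have := Fx_rel (φ := (· + x)) (K := s.K) (Equiv.addRight x).bijective (fun a b => sh_supd a b x) (gmapE (shiftV x))
    (fun Z => by convert (hs.2.2 x).K Z (Set.subset_univ _)) l 0
  rwa [zero_add] at this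

theorem c2_toEv {I J : Type} {A : Gr I →ₗ[ℝ] Gr J} {B : Gr I →ₗ[ℝ] Gr J} (T : GV I →ₗ[ℝ] GV I) (T' : GV J →ₗ[ℝ] GV J)
    (h : ∀ F, A (gmap T F) = gmap T' (B F)) (F : Ev I) : toEv A (gmapE T F) = gmapE T' (toEv B F) := by
  have key : ∀ y : Gr J, CliffordAlgebra.involute (gmap T' y) = gmap T' (CliffordAlgebra.involute y) := fun y => by
    have : (CliffordAlgebra.involute : Gr J →ₐ[ℝ] Gr J).comp (gmap T') = (gmap T').comp CliffordAlgebra.involute :=
      CliffordAlgebra.hom_ext (LinearMap.ext fun u => by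
        change CliffordAlgebra.involute (gmap T' (ExteriorAlgebra.ι ℝ u)) =
          gmap T' (CliffordAlgebra.involute (CliffordAlgebra.ι _ u))
        rw [gmap_iota, CliffordAlgebra.involute_ι, CliffordAlgebra.involute_ι, map_neg]
        exact congrArg Neg.neg (gmap_iota T' u).symm)
    exact AlgHom.congr_fun this y
  refine Subtype.ext ?_
  change (1 / 2 : ℝ) • (A (gmap T F) + CliffordAlgebra.involute (A (gmap T F))) =
    gmap T' ((1 / 2 : ℝ) • (B F + CliffordAlgebra.involute (B F)))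
  rw [h, key, map_smul, map_add]

/-- `Fx_rel` for the shift by `x` (`0 + x`), `nuF_shift`, `zF_shift` -/
theorem Fx_nu {s : St Site Al} (hs : Sym s) (l : ℕ) (x : Site) :
    nuF (Fx l s.K x : Gr Ix) = (del l s.K).1 ∧ zF x (Fx l s.K x : Gr Ix) = (del l s.K).2 := by
  have h := zF_shift x 0 (Fx l s.K 0 : Gr Ix)
  rw [zero_add] at h
  rw [c2_shift hs l x]
  exact ⟨nuF_shift x _, h⟩

/-- at `x = 0`: `Fx_rel` for `rotS`, `refS` and `loc2_invariant`; then `Fx_rel` for the shift, `loc2_shift`, `qq_symm`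
(coerce to `Gr Ix`; `toEv (loc2 (0 + x)) (gmapE (shiftV x) F) = gmapE (shiftV x) (toEv (loc2 0) F)` since `gmap` commutes with `involute`) -/
theorem loc2_Fx {p : Par} (hp : p.OK) {R : ℕ} {V : Finset Site → ℝ} (hV : PotOK R V) {s : St Site Al} (hs : Sym s) (l : ℕ)
    (x : Site) : toEv (loc2 x) (Fx l s.K x) = qq (del l s.K) x := by
  have h1 := Fx_rel (φ := rotS) (K := s.K) (Function.bijective_iff_has_inverse.2 ⟨fun y => (y.2, -y.1), fun y => by simp [rotS],
    fun y => by simp [rotS]⟩) (fun a b => by simp only [supd, rotS]; omega) rotA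
    (fun Z => by convert hs.1.K Z (Set.subset_univ _)) l 0
  have h2 := Fx_rel (φ := refS) (K := s.K) (Function.bijective_iff_has_inverse.2 ⟨refS, fun y => by simp [refS],
    fun y => by simp [refS]⟩) (fun a b => by simp only [supd, refS]; omega) refA
    (fun Z => by convert hs.2.1.K Z (Set.subset_univ _)) l 0
  have h3 : toEv (loc2 0) (Fx l s.K 0) = qq (del l s.K) 0 := loc2_invariant _ h1.symm h2.symm
  have h4 := (qq_symm hp hV (del l s.K) 0).2.2 x
  have h5 := c2_toEv _ _ (loc2_shift x 0) (Fx l s.K 0)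
  rw [zero_add] at h4 h5
  rw [c2_shift hs l x, h5, h3, h4]

end Crest.Agent.R165.D5
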