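import Crest.Agent.R165.D4.Main

/-! # R165/D5 (owner helper31): the constants and the plane geometries -/

set_option autoImplicit false
noncomputable section
open Classical

namespace Crest.Agent.R165

theorem d5a_nextBd_mono {L : ℕ} {Λ θ a C ε C' ε' : ℝ} (h : NextBd L Λ θ a C ε) (hC : C ≤ C') (hε : ε' ≤ ε) :
    NextBd L Λ θ a C' ε' := by
  intro X A _ _ _ G e Lc S Bd Bd' κ s αK αq αd εM h1 h2 h3 h4 h5 h6 h7 h8 h9 h10 hK hM hq hqm hd
  obtain ⟨b, hb, hs⟩ := h X A G e Lc S Bd Bd' κ s αK αq αd εM h1 h2 h3 h4 h5 h6 h7 (h8.trans hε) (h9.trans hε)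
    (h10.trans hε) hK hM hq hqm hd
  refine ⟨b, hb, fun y 𝒮 h𝒮 => (hs y 𝒮 h𝒮).trans ?_⟩
  obtain ⟨bK, -, hK⟩ := hK
  obtain ⟨bM, -, hM⟩ := hM
  obtain ⟨bq, hq0, hq⟩ := hq
  have a1 : 0 ≤ αK := by simpa using hK y ∅ (by simp)
  have a2 : 0 ≤ εM := by simpa using hM y ∅ (by simp)
  have a3 : 0 ≤ αq := (Finset.sum_nonneg fun x _ => (hq0 x).1).trans (hq y)
  have a4 : C * (αK + αq) * (αK + αq + εM) ≤ C' * (αK + αq) * (αK + αq + εM) := by gcongr
  linarith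

/-- `step_ok (1/128) _ fun L => max 20 (gram_final L).choose`; `l0 = 800 * (K + 10 * R + 20)`; `a = max (9 Λ) (128 (2L+3)² Λ)`;
`next_bound` gives `C, ε`; take `max C 1` and `min ε (1 / (128 * max C 1))` (`NextBd` is monotone: unfold `Geo.PN` in the conclusion,
`intro y`, then `αK, αq, εM ≥ 0` follow from the hypotheses at `y`, `𝒮 = ∅` / `Finset.sum_nonneg`); `Γ₁ = Γs`. -/
theorem exists_cons (R : ℕ) : ∃ k : Cons, ConsOK R k := by
  obtain ⟨T, L, K, hT, hL, hK, H⟩ := step_ok (1 / 128) (by norm_num) fun L => max 20 (gram_final L).choose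
  have hK20 : 20 ≤ K := (le_max_left _ _).trans hK
  have hKf : (gram_final L).choose ≤ K := (le_max_right _ _).trans hK
  let p : Par := ⟨800 * (K + 10 * R + 20), L, T⟩
  have hp : p.OK := ⟨by show 400 ≤ L; omega, Dvd.intro _ rfl, by show 0 < 800 * (K + 10 * R + 20); omega, hT⟩
  have hKl : K ≤ p.l0 := by show K ≤ 800 * (K + 10 * R + 20); omega
  obtain ⟨Γs, Λ, hΓ, hΛ, hstep⟩ := H p hp rfl rfl hKl
  obtain ⟨C, ε, hC, hε, hnb⟩ := next_bound L (by omega) Λ (1 / 128)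
    (max (9 * Λ) (128 * (((2 * L + 3 : ℕ) : ℝ) ^ 2 * Λ))) hΛ (by norm_num) (le_max_left _ _)
    (by have := le_max_right (9 * Λ) (128 * (((2 * L + 3 : ℕ) : ℝ) ^ 2 * Λ)); linarith)
  have hC1 : (0 : ℝ) < max C 1 := lt_max_of_lt_right one_pos
  refine ⟨⟨p, K, Γs, Λ, max (9 * Λ) (128 * (((2 * L + 3 : ℕ) : ℝ) ^ 2 * Λ)), max C 1, min ε (1 / (128 * max C 1)),
    2 * Γs * p.l 1 * (2 * Γs), Γs⟩, hp, ⟨hKl, by show 10 * R + 20 ≤ 800 * (K + 10 * R + 20); omega⟩, ⟨hL, hK20⟩, hstep,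
    d5a_nextBd_mono hnb (le_max_left _ _) (min_le_left _ _),
    ⟨hΓ, hΛ, le_max_left _ _, le_max_right _ _, lt_min hε (by positivity), ?_⟩, ⟨le_rfl, rfl⟩, fun N₀ n CS => ?_⟩
  · show 128 * max C 1 * min ε (1 / (128 * max C 1)) ≤ 1
    calc 128 * max C 1 * min ε (1 / (128 * max C 1)) ≤ 128 * max C 1 * (1 / (128 * max C 1)) := by
          gcongr; exact min_le_right _ _
      _ = 1 := by field_simp
  · obtain ⟨Γf, hf⟩ := (gram_final L).choose_spec N₀ n CS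
    exact ⟨Γf, fun 𝔤 j g x₀ h1 h2 h3 h4 h5 h6 =>
      hf p K Γs 𝔤 j g x₀ hp rfl hKf (hKf.trans hKl) hΓ h1 h2 h3 h4 h5 h6⟩

theorem D5.consb_nfz (b : Site) : ¬ FrozenB Set.univ b := fun ⟨_, h, _⟩ => h (Set.mem_univ _)

theorem D5.consb_reg (ρ : ℝ) : Reg Set.univ ρ :=
  ⟨fun b h => absurd h.1 (D5.consb_nfz b), fun b h => absurd h.1 (D5.consb_nfz b),
    fun b _ _ h => absurd h (D5.consb_nfz b), fun b _ h => absurd h (D5.consb_nfz b)⟩

theorem D5.consb_bb : (∅ : Set Site) = {b | BdryB Set.univ b} :=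
  Set.ext fun b => ⟨fun h => h.elim, fun h => D5.consb_nfz b h.1⟩

theorem D5.consb_eray (e : Edge) : eray ∅ e = 1 := by simp [eray]

theorem D5.consb_wPl : wPl = wOf Set.univ ∅ := by
  funext e; simp [wPl, wOf, D5.consb_eray]

theorem D5.consb_abs (S : Finset Site) (e : Edge) : |wOf Set.univ S e| = tc := by
  have h : |eray S e| = 1 := by
    unfold eray; split_ifs <;> simp
  rw [wOf, if_pos (Set.mem_univ _), abs_mul, h, mul_one, abs_of_pos tc_pos.1]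

theorem D5.consb_gam {R : ℕ} {k : Cons} (hk : ConsOK R k) (j : ℕ) :
    (k.Γs ≤ k.Gam j ∧ k.Γs ≤ k.Gam (j + 1) ∧ k.Gam (j + 1) ≤ 2 * k.Gam j ∧
      (j = 0 → k.Γs * k.p.l 1 * k.Gam 1 ≤ k.Gam 0 ∧ k.Gam 0 ≤ 4 * k.Γs * k.p.l 1 * k.Gam 1)) ∧
    (1 : ℝ) ≤ if j = 0 then k.Gam 0 ^ 2 * k.p.l 1 / k.Gam 1 ^ 2 else (k.p.L : ℝ) := by
  obtain ⟨h1, h2⟩ := hk.gam
  have h3 := hk.one.1
  obtain ⟨hL, -, hl0, -⟩ := hk.pok
  have hl : (1 : ℝ) ≤ k.p.l 1 := by
    have : 1 ≤ k.p.l 1 := Nat.mul_pos hl0 (pow_pos (by omega) _)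
    exact_mod_cast this
  have hL' : (1 : ℝ) ≤ k.p.L := by
    have : 1 ≤ k.p.L := by omega
    exact_mod_cast this
  have h4 : 1 ≤ k.Γ₁ := h3.trans h1
  have g0 : k.Gam 0 = 2 * k.Γs * k.p.l 1 * (2 * k.Γ₁) := by rw [Cons.Gam, if_pos rfl, h2]
  have gs : ∀ i, k.Gam (i + 1) = k.Γ₁ * 2 ^ (i + 1) := fun i => by rw [Cons.Gam, if_neg (Nat.succ_ne_zero i)]
  have g1 : k.Gam 1 = 2 * k.Γ₁ := by rw [gs 0]; ring
  have hp : ∀ i : ℕ, (1 : ℝ) ≤ 2 ^ i := fun i => one_le_pow₀ (by norm_num)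
  have a1 : 1 ≤ k.Γs * k.p.l 1 := one_le_mul_of_one_le_of_one_le h3 hl
  have a2 : k.Γ₁ ≤ k.Γs * k.p.l 1 * k.Γ₁ := le_mul_of_one_le_left (by linarith) a1
  have a3 : k.Gam 1 ≤ k.Gam 0 := by rw [g0, g1]; nlinarith
  have hs : ∀ i, k.Γs ≤ k.Gam (i + 1) := fun i => by
    rw [gs]; exact h1.trans (le_mul_of_one_le_right (by linarith) (hp _))
  cases j with
  | zero =>
    refine ⟨⟨(hs 0).trans a3, hs 0, ?_, fun _ => ⟨?_, ?_⟩⟩, ?_⟩
    · have := (hs 0).trans a3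
      simp only [zero_add] at *
      linarith
    · rw [g0, g1]; nlinarith
    · rw [g0, g1]; nlinarith
    · have b1 : 0 < k.Gam 1 := by rw [g1]; linarith
      rw [if_pos rfl, le_div_iff₀ (pow_pos b1 2), one_mul]
      exact (pow_le_pow_left₀ b1.le a3 2).trans (le_mul_of_one_le_right (sq_nonneg _) hl)
  | succ i =>
    refine ⟨⟨hs i, hs (i + 1), ?_, fun h => absurd h (Nat.succ_ne_zero i)⟩, ?_⟩
    · rw [gs, gs, pow_succ _ (i + 1)]; exact le_of_eq (by ring)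
    · rw [if_neg (Nat.succ_ne_zero i)]; exact hL'

/-- `E = univ`: nothing is frozen (`Reg univ ρ` is vacuous), `wPl = wOf univ ∅`, `jN = ⊤`, `m = 0`, `h = 1` -/
theorem geoOK_plane {R : ℕ} {k : Cons} (hk : ConsOK R k) (j : ℕ) :
    GeoOK k.p k.K k.Γs (gPl0 R k.Gam) j ∧ GeoOK k.p k.K k.Γs (gBr0 R k.Gam) j := by
  obtain ⟨hg, hw⟩ := D5.consb_gam hk j
  have hj : ((j : ℕ∞) < ⊤) := ENat.natCast_lt_top j
  have hj' : ∀ i : ℕ, ¬ ((⊤ : ℕ∞) ≤ i) := fun i h => (ENat.natCast_lt_top i).not_ge h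
  constructor
  · refine ⟨⟨_, le_rfl, Or.inl ⟨Set.univ, D5.consb_reg _, D5.consb_wPl, D5.consb_bb, fun h => absurd rfl h⟩⟩,
      fun v hv => absurd hv (Finset.notMem_empty v), fun i hi => absurd hi (Nat.not_lt_zero i),
      fun _ => ⟨fun v hv => absurd hv (Finset.notMem_empty v), fun i hi => absurd hi (Nat.not_lt_zero i),
        fun i hi => absurd hi (Nat.not_lt_zero i)⟩, fun h => absurd h (hj' _), fun h => absurd h (hj' _), hg,
      ⟨one_pos, one_pos, ?_⟩, fun h => absurd h (by change (⊤ : ℕ∞) ≠ 1; decide)⟩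
    change (1 : ℝ) ≤ (if (j : ℕ∞) < ⊤ then
      (if j = 0 then k.Gam 0 ^ 2 * k.p.l 1 / k.Gam 1 ^ 2 else (k.p.L : ℝ)) else 1) * 1
    rw [if_pos hj, mul_one]; exact hw
  · refine ⟨⟨_, le_rfl, Or.inl ⟨Set.univ, D5.consb_reg _, rfl, D5.consb_bb, fun h => absurd rfl h⟩⟩,
      fun v _ => ⟨D5.consb_abs _ _, fun b hb => hb.elim⟩, fun i hi => absurd hi (Nat.not_lt_zero i),
      fun _ => ⟨fun v hv v' hv' h => absurd ((Finset.mem_singleton.1 hv).trans (Finset.mem_singleton.1 hv').symm) h,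
        fun i hi => absurd hi (Nat.not_lt_zero i),
        fun i hi => absurd hi (Nat.not_lt_zero i)⟩, fun h => absurd h (hj' _), fun h => absurd h (hj' _), hg,
      ⟨one_pos, one_pos, ?_⟩, fun h => absurd h (by change (⊤ : ℕ∞) ≠ 1; decide)⟩
    change (1 : ℝ) ≤ (if (j : ℕ∞) < ⊤ then
      (if j = 0 then k.Gam 0 ^ 2 * k.p.l 1 / k.Gam 1 ^ 2 else (k.p.L : ℝ)) else 1) * 1
    rw [if_pos hj, mul_one]; exact hw

theorem D5.consb_conn {l : ℕ} (hl : 0 < l) (e : Edge) : geoZ.Conn l (enS e) := by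
  have hd : geoZ.d = supd := exists_geoZ.choose_spec.1
  have h1 : supd e.1 (e.1 + uv e.2) ≤ l := by
    obtain ⟨x, j⟩ := e
    fin_cases j <;> simp [supd, uv] <;> omega
  refine ⟨⟨e.1, by simp [enS]⟩, fun x hx y hy => ?_⟩
  by_cases hxy : x = y
  · rw [hxy]
  refine Relation.ReflTransGen.single ⟨hx, hy, ?_⟩
  rw [hd]
  simp only [enS, Finset.mem_insert, Finset.mem_singleton] at hx hy
  rcases hx with rfl | rfl <;> rcases hy with rfl | rfl
  · exact absurd rfl hxy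
  · exact h1
  · rw [supd_comm]; exact h1
  · exact absurd rfl hxy

theorem D5.consb_dep (c : ℝ × ℝ) (e : Edge) : DependsOn (enO c e) ↑(edgesIn (enS e)) := by
  intro n n' h
  have : n e = n' e := h e (by simp [edgesIn, enS])
  simp only [enO, this]

/-- `Λ = univ`; for `gEn`: `geoZ.d = supd` (`exists_geoZ.choose_spec.1`), `e ∈ edgesIn (enS e)` -/
theorem initOK_plane {R : ℕ} {k : Cons} (hk : ConsOK R k) (c : ℝ × ℝ) (Γ h : ℕ → ℝ) (e : Edge) :
    InitOK k.p R c (gPl0 R Γ) ∧ InitOK k.p R c (gBr0 R Γ) ∧ InitOK k.p R c (gEn R Γ h c e) := by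
  have hw : ∀ e, |wPl e| ≤ 1 := fun e => by
    rw [wPl, abs_of_pos tc_pos.1]; exact tc_pos.2.le
  refine ⟨⟨fun B hB => ⟨hB, Set.subset_univ _⟩, fun B hB _ => hB, fun _ _ => ⟨trivial, trivial⟩, hw,
      fun i hi => absurd hi (Nat.not_lt_zero i), fun _ i hi => absurd hi (Nat.not_lt_zero i)⟩,
    ⟨fun B hB => ⟨hB, Set.subset_univ _⟩, fun B hB _ => hB, fun _ _ => ⟨trivial, trivial⟩,
      fun e => (D5.consb_abs {0} e).trans_le tc_pos.2.le,
      fun i hi => absurd hi (Nat.not_lt_zero i), fun _ i hi => absurd hi (Nat.not_lt_zero i)⟩,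
    ⟨fun B hB => ⟨hB, Set.subset_univ _⟩, fun B hB _ => hB, fun _ _ => ⟨trivial, trivial⟩, hw,
      fun i _ => ⟨D5.consb_conn hk.pok.2.2.1 e, Finset.mem_insert_self _ _, Set.subset_univ _, D5.consb_dep c e⟩,
      fun _ i _ => ⟨rfl, rfl, ?_⟩⟩⟩
  change tc = tc * eray ∅ e
  rw [D5.consb_eray, mul_one]

namespace D5

theorem consc_tOf {c : ℝ × ℝ} (h1 : |c.1| ≤ 1 / 10) (h2 : |c.2| ≤ 1 / 10) :
    |tOf c - tc| ≤ 10 / 9 * |c.1| ∧ 3 / 10 ≤ tOf c ∧ 0.4115 ≤ tc ∧ 1 + c.2 ≠ 0 := by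
  have h3 : 9 / 10 ≤ 1 + c.2 := by linarith [(abs_le.1 h2).1]
  have h4 : |tOf c - tc| ≤ 10 / 9 * |c.1| := by
    rw [tOf, add_sub_cancel_left, abs_div, abs_of_pos (by linarith : 0 < 1 + c.2), div_le_iff₀ (by linarith)]
    nlinarith [abs_nonneg c.1]
  have h5 : 0.4115 ≤ tc := by
    have : (1.4115 : ℝ) ≤ Real.sqrt 2 := Real.le_sqrt_of_sq_le (by norm_num)
    rw [tc]; linarith
  refine ⟨h4, ?_, h5, by linarith⟩
  linarith [(abs_le.1 h4).1]

theorem consc_log {t t' m : ℝ} (hm : 0 < m) (ht : m ≤ t) (ht' : m ≤ t') : Real.log t - Real.log t' ≤ |t - t'| / m := by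
  have h0 : 0 < t := hm.trans_le ht
  have h0' : 0 < t' := hm.trans_le ht'
  rw [← Real.log_div h0.ne' h0'.ne']
  refine (Real.log_le_sub_one_of_pos (div_pos h0 h0')).trans ?_
  rw [div_sub_one h0'.ne']
  exact (div_le_div_of_nonneg_right (le_abs_self _) h0'.le).trans (div_le_div_of_nonneg_left (abs_nonneg _) hm ht')

/-- `criticalBeta J = -log tc / (2 J)` (`exp_critical`, or `(1 + √2) * tc = 1`); `|tOf c - tc| ≤ 10/9 |c.1| ≤ 1/9`, `tc ≥ 0.414`,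
`|log t - log t'| ≤ |t - t'| / min t t'` (`Real.log_le_sub_one_of_pos` for `t / t'` and `t' / t`) -/
theorem beta_facts {J : ℝ} (hJ : 0 < J) {c : ℝ × ℝ} (h1 : |c.1| ≤ 1 / 10) (h2 : |c.2| ≤ 1 / 10) :
    |betaOf J c - Crest.ProbabilityR.IsingModel.criticalBeta J| ≤ 2 / J * |c.1| ∧
      Real.exp (-2 * betaOf J c * J) = tOf c := by
  obtain ⟨h3, h4, h5, -⟩ := consc_tOf h1 h2
  constructor
  · have hc : Crest.ProbabilityR.IsingModel.criticalBeta J = -Real.log tc / (2 * J) := by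
      have h6 : (1 + Real.sqrt 2) = tc⁻¹ := by
        refine eq_inv_of_mul_eq_one_left ?_
        have := Real.mul_self_sqrt (show (0 : ℝ) ≤ 2 by norm_num)
        rw [tc]; linarith
      rw [Crest.ProbabilityR.IsingModel.criticalBeta, h6, Real.log_inv]
    have h7 : |Real.log (tOf c) - Real.log tc| ≤ 4 * |c.1| := by
      have a1 := consc_log (m := 3 / 10) (by norm_num) h4 (by linarith : 3 / 10 ≤ tc)
      have a2 := consc_log (m := 3 / 10) (by norm_num) (by linarith : 3 / 10 ≤ tc) h4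
      rw [abs_sub_comm] at a2
      rw [abs_le]
      constructor <;> linarith [abs_nonneg c.1]
    rw [hc, betaOf, ← sub_div, abs_div, abs_of_pos (by positivity : 0 < 2 * J), div_le_iff₀ (by positivity),
      neg_sub_neg, abs_sub_comm]
    refine h7.trans (le_of_eq ?_)
    field_simp
    ring
  · rw [betaOf, show -2 * (-Real.log (tOf c) / (2 * J)) * J = Real.log (tOf c) by field_simp, Real.exp_log (by linarith)]

theorem beta_cont {P : Type} [TopologicalSpace P] (J : ℝ) {c : P → ℝ × ℝ} (hc : Continuous c)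
    (h1 : ∀ t, |(c t).1| ≤ 1 / 10) (h2 : ∀ t, |(c t).2| ≤ 1 / 10) : Continuous fun t => betaOf J (c t) := by
  have h3 : Continuous fun t => tOf (c t) :=
    continuous_const.add (hc.fst.div (continuous_const.add hc.snd) fun t => (consc_tOf (h1 t) (h2 t)).2.2.2)
  exact (h3.log fun t => by linarith [(consc_tOf (h1 t) (h2 t)).2.1]).neg.div_const _

end D5

end Crest.Agent.R165
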