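import Crest.Agent.R165.D5.Step

/-! # R165/D5 (owner helper31): the clamped plane flow -/

set_option autoImplicit false
noncomputable section
open Classical

namespace Crest.Agent.R165.D5

variable {R : ℕ} {k : Cons} {V : Finset Site → ℝ}

theorem grp_zero {X A : Type} [CommRing A] (G : Geo X) (r r' : ℕ) (Z : Finset X) :
    G.grp r r' (fun _ => (0 : A)) (fun _ => 0) Z = 0 := by
  unfold Geo.grp
  split_ifs with h
  · refine Finset.sum_eq_zero fun 𝒮 _ => Finset.sum_eq_zero fun 𝒳 _ => ?_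
    split_ifs with h1
    · rcases 𝒮.eq_empty_or_nonempty with rfl | ⟨Y, hY⟩
      · rcases 𝒳.eq_empty_or_nonempty with rfl | ⟨Y, hY⟩
        · exact absurd h.1 (by rw [← h1]; simp)
        · rw [Finset.prod_eq_zero hY rfl, mul_zero]
      · rw [Finset.prod_eq_zero hY rfl, zero_mul]
    · rfl
  · rfl

theorem PN_mono {Bd : Finset Site → Al → ℝ → Prop} {l : ℕ} {a α α' : ℝ} {K : Finset Site → Al}
    (h : geoZ.PN Bd l a K α) (hα : α ≤ α') : geoZ.PN Bd l a K α' := by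
  obtain ⟨b, h1, h2⟩ := h
  exact ⟨b, h1, fun y 𝒮 h𝒮 => (h2 y 𝒮 h𝒮).trans hα⟩

theorem SN_mono {Bd : Finset Site → Al → ℝ → Prop} {l : ℕ} {α α' : ℝ} {q : Site → Al}
    (h : geoZ.SN Bd l q α) (hα : α ≤ α') : geoZ.SN Bd l q α' := by
  obtain ⟨b, h1, h2⟩ := h
  exact ⟨b, h1, fun y => (h2 y).trans hα⟩

theorem SN_nonneg {Bd : Finset Site → Al → ℝ → Prop} {l : ℕ} {α : ℝ} {q : Site → Al} (h : geoZ.SN Bd l q α) : 0 ≤ α := by
  obtain ⟨b, h1, h2⟩ := h
  exact (Finset.sum_nonneg fun x _ => (h1 x).1).trans (h2 0)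

theorem SN_zero {Bd : Finset Site → Al → ℝ → Prop} (hB : BdAx Bd augE) (l : ℕ) {α : ℝ} (hα : 0 ≤ α) {q : Site → Al}
    (hq : ∀ x, q x = 0) : geoZ.SN Bd l q α :=
  ⟨fun _ => 0, fun x => ⟨le_rfl, by rw [hq]; exact hB.zero _⟩, fun y => by simpa using hα⟩

theorem PN_zero {Bd : Finset Site → Al → ℝ → Prop} (hB : BdAx Bd augE) (l : ℕ) (a : ℝ) {K : Finset Site → Al}
    (hK : ∀ Z, K Z = 0) : geoZ.PN Bd l a K 0 :=
  ⟨fun _ => 0, fun Z => ⟨le_rfl, by rw [hK]; exact hB.zero _⟩, fun y 𝒮 _ => by simp⟩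

structure Good (R : ℕ) (k : Cons) (j : ℕ) (s : St Site Al) (α : ℝ) : Prop where
  lcl : s.Lcl geoZ ((gPl0 R k.Gam).Lc k.p j) (k.p.l j)
  sym : Sym s
  qm : ∀ x, s.qm x = 0
  M : ∀ Z, s.M Z = 0
  K : geoZ.PN ((gPl0 R k.Gam).Bd k.p j) (k.p.l j) k.a s.K α

def setq (s : St Site Al) (u : ℝ × ℝ) : St Site Al := { s with q := qq u }

theorem rel_setq {φ : Site → Site} {Φ : Al →ₐ[ℝ] Al} {s : St Site Al} (h : s.Rel φ Φ Set.univ s) {u : ℝ × ℝ}
    (hu : ∀ x, qq u (φ x) = Φ (qq u x)) : (setq s u).Rel φ Φ Set.univ (setq s u) :=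
  ⟨fun x _ => hu x, h.qm, h.M, h.K⟩

theorem next_good (hk : ConsOK R k) (hV : PotOK R V) {j : ℕ} {s : St Site Al} {αK αq : ℝ} (hs : Good R k j s αK)
    {u : ℝ × ℝ} (hq : s.q = qq u) (hSN : geoZ.SN ((gPl0 R k.Gam).Bd k.p j) (k.p.l j) s.q αq) (h1 : αK ≤ k.ε)
    (h2 : αq ≤ k.ε) (u' : ℝ × ℝ) :
    Good R k (j + 1) (setq (((gPl0 R k.Gam).sp k.p j).next geoZ augE s) u') (αK / 64 + k.C * (αK + αq) ^ 2) := by
  have hB : ∀ i, BdAx ((gPl0 R k.Gam).Bd k.p i) (augE (I := Ix)) := fun i => bdAx_BdU _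
  have hA := sp_alg k.p hk.pok.1 hk.pok.2.1 hk.pok.2.2.1 (gPl0 R k.Gam) j
  have hl := (next_lcl geoZ (hB j).nil hA hs.lcl).1
  have hm := fun Z => lc_mono k.p hk.pok (gPl0 R k.Gam) (Nat.le_succ j) Z
  have hy := next_symm hk.pok R k.Gam j hs.lcl
  have hqs := fun x => qq_symm hk.pok hV u' x
  refine ⟨⟨fun x => qq_mem hk _ _ _ x, fun x => hm _ (hl.qm x), fun Z => hm _ (hl.M Z), fun Z => hm _ (hl.K Z), hl.Mc,
    hl.Kc⟩, ⟨rel_setq (hy.1 hs.sym.1) fun x => (hqs x).1, rel_setq (hy.2.1 hs.sym.2.1) fun x => (hqs x).2.1,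
      fun a => rel_setq (hy.2.2 a (hs.sym.2.2 a)) fun x => (hqs x).2.2 a⟩, fun x => ?_, fun Z => ?_, ?_⟩
  · change toEv ((gPl0 R k.Gam).mvG k.p j x) _ = 0
    rw [mvG_plane]
    simp [toEv]
  · change ((gPl0 R k.Gam).sp k.p j).mu (geoZ.grp _ _ (sgl fun x => exA augE (s.qm x) - 1) s.M Z) = 0
    have e1 : (sgl fun x => exA augE (s.qm x) - 1) = fun _ => (0 : Al) := by
      funext Y
      exact sgl_eq_zero _ fun x _ => by rw [hs.qm, exA_zero, sub_self]
    have e2 : s.M = fun _ => 0 := funext hs.M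
    rw [e1, e2, grp_zero, map_zero]
  · obtain ⟨κ, hκ⟩ := (hk.step _ j (geoOK_plane hk j).1).ana
    have hl' : ((gPl0 R k.Gam).sp k.p j).l' = k.p.L * ((gPl0 R k.Gam).sp k.p j).l := by
      change k.p.l0 * k.p.L ^ (j + 1) = k.p.L * (k.p.l0 * k.p.L ^ j)
      ring
    have := hk.nb Site Al geoZ augE _ _ _ _ κ s αK αq 0 0 (one_le_l hk j) hl' (hB j) (hB (j + 1)) hA hκ hs.lcl h1 h2
      hk.one.2.2.2.2.1.le hs.K (PN_zero (hB j) _ _ hs.M) hSN (SN_zero (hB j) _ (SN_nonneg hSN) hs.qm)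
      (SN_zero (hB (j + 1)) _ le_rfl fun x => by rw [hq]; exact plane_fix _ _ _ _ _ _)
    exact PN_mono this (le_of_eq (by ring))

/-! ### clamping -/

def clamp (b t : ℝ) : ℝ := max (-b) (min b t)

theorem abs_clamp {b : ℝ} (hb : 0 ≤ b) (t : ℝ) : |clamp b t| ≤ b :=
  abs_le.2 ⟨le_max_left _ _, max_le (by linarith) (min_le_left _ _)⟩

theorem clamp_of_le {b t : ℝ} (h : |t| ≤ b) : clamp b t = t := by
  rw [clamp, min_eq_right (abs_le.1 h).2, max_eq_right (abs_le.1 h).1]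

def wt (k : Cons) (j : ℕ) : ℝ := (k.p.l j : ℝ) ^ (if j = 0 then 2 else 0) * k.Gam j ^ 2
def bz (k : Cons) (B : ℝ) (j : ℕ) : ℝ := B * vth ^ j / (2 * wt k j)
def bn (k : Cons) (B : ℝ) (j : ℕ) : ℝ := bz k B j / k.p.l j
def cl (k : Cons) (B : ℝ) (j : ℕ) (u : ℝ × ℝ) : ℝ × ℝ := (clamp (bn k B j) u.1, clamp (bz k B j) u.2)

theorem vth_pos : 0 < vth := by norm_num [vth]
theorem vth_pow_le (j : ℕ) : vth ^ j ≤ 1 := pow_le_one₀ vth_pos.le (by norm_num [vth])

theorem one_le_l' (hk : ConsOK R k) (j : ℕ) : (1 : ℝ) ≤ k.p.l j := by exact_mod_cast one_le_l hk j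

theorem one_le_wt (hk : ConsOK R k) (j : ℕ) : 1 ≤ wt k j :=
  one_le_mul_of_one_le_of_one_le (one_le_pow₀ (one_le_l' hk j)) (one_le_pow₀ (one_le_Gam hk j))

theorem bz_nonneg (hk : ConsOK R k) {B : ℝ} (hB : 0 ≤ B) (j : ℕ) : 0 ≤ bz k B j := by
  have := one_le_wt hk j
  have := vth_pos
  unfold bz
  positivity

theorem bn_nonneg (hk : ConsOK R k) {B : ℝ} (hB : 0 ≤ B) (j : ℕ) : 0 ≤ bn k B j :=
  div_nonneg (bz_nonneg hk hB j) (Nat.cast_nonneg _)

theorem cl_bound (hk : ConsOK R k) {B : ℝ} (hB : 0 ≤ B) (j : ℕ) (u : ℝ × ℝ) :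
    (|(cl k B j u).1| * k.p.l j + |(cl k B j u).2|) * wt k j ≤ B * vth ^ j := by
  have h0 := one_le_wt hk j
  have hl := one_le_l' hk j
  have h1 : |(cl k B j u).1| * k.p.l j ≤ bz k B j := by
    have := abs_clamp (bn_nonneg hk hB j) u.1
    rw [bn, le_div_iff₀ (by linarith)] at this
    exact this
  have h2 : |(cl k B j u).2| ≤ bz k B j := abs_clamp (bz_nonneg hk hB j) u.2
  calc _ ≤ (bz k B j + bz k B j) * wt k j := by gcongr
    _ = _ := by unfold bz; field_simp; ring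

theorem cl_zero (hk : ConsOK R k) {B : ℝ} (hB : 0 ≤ B) (u : ℝ × ℝ) : |(cl k B 0 u).1| + |(cl k B 0 u).2| ≤ B := by
  have h := cl_bound hk hB 0 u
  have h0 := one_le_wt hk 0
  have hl := one_le_l' hk 0
  have h1 := abs_nonneg (cl k B 0 u).1
  have h2 := abs_nonneg (cl k B 0 u).2
  rw [pow_zero, mul_one] at h
  have h3 : |(cl k B 0 u).1| ≤ |(cl k B 0 u).1| * k.p.l 0 := le_mul_of_one_le_right h1 hl
  exact (add_le_add_left h3 _).trans ((le_mul_of_one_le_right (by positivity) h0).trans h)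

theorem cl_cont (k : Cons) (B : ℝ) (j : ℕ) : Continuous (cl k B j) := by
  unfold cl clamp
  fun_prop

/-! ### the clamped flow -/

/-- state and unclamped couplings -/
def cf (R : ℕ) (k : Cons) (V : Finset Site → ℝ) (J lam B : ℝ) (t : ℝ × ℝ) : ℕ → St Site Al × (ℝ × ℝ)
  | 0 => ((gPl0 R k.Gam).s0 k.p (cl k B 0 t) (betaOf J (cl k B 0 t) * lam) V, t)
  | j + 1 => (setq (((gPl0 R k.Gam).sp k.p j).next geoZ augE (cf R k V J lam B t j).1)
      (cl k B (j + 1) ((cf R k V J lam B t j).2 + del (k.p.l j) (cf R k V J lam B t j).1.K)),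
      (cf R k V J lam B t j).2 + del (k.p.l j) (cf R k V J lam B t j).1.K)

variable {J lam B : ℝ}

theorem cl_c (hk : ConsOK R k) (hB : 0 ≤ B) (hB' : B ≤ 1 / 10) (u : ℝ × ℝ) :
    |(cl k B 0 u).1| ≤ 1 / 10 ∧ |(cl k B 0 u).2| ≤ 1 / 10 ∧ -1 < (cl k B 0 u).2 := by
  have h := cl_zero hk hB u
  have h1 := abs_nonneg (cl k B 0 u).1
  have h2 := abs_nonneg (cl k B 0 u).2
  have h3 := neg_abs_le (cl k B 0 u).2
  exact ⟨by linarith, by linarith, by linarith⟩

theorem cf_q (hk : ConsOK R k) (hB : 0 ≤ B) (hB' : B ≤ 1 / 10) (t : ℝ × ℝ) :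
    ∀ j, (cf R k V J lam B t j).1.q = qq (cl k B j (cf R k V J lam B t j).2)
  | 0 => funext fun x => s0_q_bulk (𝔤 := gPl0 R k.Gam) (cl_c hk hB hB' t).2.2 k.p _ V (Set.mem_univ x) fun _ =>
      ⟨Set.mem_univ _, abs_of_pos tc_pos.1⟩
  | _ + 1 => rfl

theorem cf_u (t : ℝ × ℝ) : ∀ j, (cf R k V J lam B t j).2 =
    t + ∑ i ∈ Finset.range j, del (k.p.l i) (cf R k V J lam B t i).1.K
  | 0 => by simp [cf]
  | j + 1 => by
    rw [Finset.sum_range_succ, ← add_assoc, ← cf_u t j]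
    rfl

theorem del_cont {P : Type} [TopologicalSpace P] {K : P → Finset Site → Al} (h : ∀ Z, PCts fun t => K t Z) (l : ℕ) :
    Continuous fun t => del l (K t) := by
  have h1 : PCts fun t => Fx l (K t) 0 :=
    PCts.sum _ fun Y _ => PCts.ite _ ((h Y).smul continuous_const)
  exact (h1.continuous (nuF ∘ₗ (Subalgebra.val _).toLinearMap)).prodMk
    (h1.continuous (zF 0 ∘ₗ (Subalgebra.val _).toLinearMap))

theorem cf_cts (hk : ConsOK R k) (hB : 0 ≤ B) (hB' : B ≤ 1 / 10) :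
    ∀ j, (St.PCts fun t => (cf R k V J lam B t j).1) ∧ Continuous fun t => (cf R k V J lam B t j).2
  | 0 => ⟨s0_pcts k.p (gPl0 R k.Gam) V (cl_cont k B 0) (fun t => (cl_c hk hB hB' t).2.2)
      ((beta_cont J (cl_cont k B 0) (fun t => (cl_c hk hB hB' t).1) fun t => (cl_c hk hB hB' t).2.1).mul
        continuous_const), continuous_id⟩
  | j + 1 => by
    obtain ⟨h1, h2⟩ := cf_cts hk hB hB' j
    have h3 := (next_pcts geoZ (bdAx_BdU ((gPl0 R k.Gam).U k.p 0)).nil ((gPl0 R k.Gam).sp k.p j) h1).1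
    have h4 := h2.add (del_cont h1.K (k.p.l j))
    have h5 := (cl_cont k B (j + 1)).comp h4
    exact ⟨⟨fun x => ((PCts.const _).smul h5.fst).add ((PCts.const _).smul h5.snd), h3.qm, h3.M, h3.K⟩, h4⟩

theorem s0_M (c : ℝ × ℝ) (μ : ℝ) (Z : Finset Site) : ((gPl0 R k.Gam).s0 k.p c μ V).M Z = 0 := by
  change hat _ _ (geoZ.grp _ _ (gPl0 R k.Gam).actO (fun _ => 0) Z) = 0
  have : (gPl0 R k.Gam).actO = fun _ => 0 := by
    funext Y n
    simp [Geom.actO, gPl0, gPlane]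
  rw [this, grp_zero]
  simp [hat]

/-- the flow stays small; `h0` is the bound on the initial state -/
theorem cf_good (hk : ConsOK R k) (hV : PotOK R V) {α Q : ℝ} (hB : 0 ≤ B) (hB' : B ≤ 1 / 10) (hα : 0 ≤ α)
    (hQ : 9 * k.Λ ≤ Q) (h1 : α ≤ k.ε) (h2 : Q * B ≤ k.ε) (h3 : k.C * (α + Q * B) ^ 2 ≤ 3 / 64 * α) (t : ℝ × ℝ)
    (h0 : geoZ.PN ((gPl0 R k.Gam).Bd k.p 0) (k.p.l 0) k.a (cf R k V J lam B t 0).1.K α ∧
      geoZ.SN ((gPl0 R k.Gam).Bd k.p 0) (k.p.l 0) (cf R k V J lam B t 0).1.q (Q * B)) :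
    ∀ j, Good R k j (cf R k V J lam B t j).1 (α * vth ^ j) := by
  have hΛ := hk.one.2.1
  have hQ0 : 0 ≤ Q := by linarith
  intro j
  induction j with
  | zero =>
    have hl : k.p.l 0 = k.p.l0 := by simp [Par.l]
    refine ⟨?_, s0_symm hk.pok hV _ _ _, fun _ => rfl, s0_M _ _, by simpa using h0.1⟩
    rw [hl]
    exact s0_lcl hk.pok hk.l0.2 (initOK_plane hk _ _ (fun _ => 1) ((0, 0), 0)).1 _ _
  | succ j ih =>
    have hv := vth_pow_le j
    have hv0 := pow_pos vth_pos j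
    have hSN : geoZ.SN ((gPl0 R k.Gam).Bd k.p j) (k.p.l j) (cf R k V J lam B t j).1.q (Q * B * vth ^ j) := by
      cases j with
      | zero => simpa using h0.2
      | succ j =>
        rw [cf_q hk hB hB']
        refine SN_mono (qq_SN hk j _) ?_
        have h4 := cl_bound hk hB (j + 1) (cf R k V J lam B t (j + 1)).2
        rw [wt, if_neg (Nat.succ_ne_zero j), pow_zero, one_mul] at h4
        rw [mul_assoc Q]
        exact mul_le_mul hQ h4 (by positivity) hQ0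
    have h5 := next_good hk hV ih (cf_q hk hB hB' t j) hSN ((mul_le_of_le_one_right hα hv).trans h1)
      ((mul_le_of_le_one_right (by positivity) hv).trans h2)
      (cl k B (j + 1) ((cf R k V J lam B t j).2 + del (k.p.l j) (cf R k V J lam B t j).1.K))
    refine ⟨h5.lcl, h5.sym, h5.qm, h5.M, PN_mono h5.K ?_⟩
    have h6 : k.C * (α * vth ^ j + Q * B * vth ^ j) ^ 2 ≤ 3 / 64 * α * vth ^ j := by
      calc _ = k.C * (α + Q * B) ^ 2 * vth ^ j * vth ^ j := by ring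
        _ ≤ 3 / 64 * α * vth ^ j * 1 := by gcongr
        _ = _ := mul_one _
    have h7 : α * vth ^ (j + 1) = α * vth ^ j / 16 := by
      rw [pow_succ, show vth = 1 / 16 from rfl]
      ring
    linarith

/-! ### the fixed point -/

theorem tail_le {f b : ℕ → ℝ} (h : ∀ j i, |f (i + j)| ≤ b j / 2 * vth ^ i) {t : ℝ} (ht : t = -∑' n, f n) (j : ℕ) :
    |t + ∑ i ∈ Finset.range j, f i| ≤ b j := by
  have hg : ∀ j, HasSum (fun i => b j / 2 * vth ^ i) (b j / 2 * (1 - vth)⁻¹) := fun j =>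
    (hasSum_geometric_of_lt_one vth_pos.le (by norm_num [vth])).mul_left _
  have hs : Summable f := Summable.of_norm_bounded (hg 0).summable fun i => h 0 i
  have hb : 0 ≤ b j := by
    have := (abs_nonneg _).trans (h j 0)
    rw [pow_zero] at this
    linarith
  rw [ht, ← hs.sum_add_tsum_nat_add j, neg_add, add_right_comm, neg_add_cancel, zero_add, abs_neg]
  refine (tsum_of_norm_bounded (f := fun i => f (i + j)) (hg j) fun i => h j i).trans ?_
  rw [show vth = 1 / 16 from rfl]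
  linarith

theorem wt_le (hk : ConsOK R k) (j i : ℕ) :
    k.Λ * (wt k j * k.p.l j) ≤ k.Λ * (wt k 0 * k.p.l 0) * (k.p.l (i + j) * k.Gam (i + j) ^ 2) ∧
      k.Λ * wt k j ≤ k.Λ * (wt k 0 * k.p.l 0) * k.Gam (i + j) ^ 2 := by
  have hΛ := hk.one.2.1
  have hw := one_le_wt hk 0
  have hl0 := one_le_l' hk 0
  have hl := one_le_l' hk (i + j)
  have hG : 1 ≤ k.Gam (i + j) ^ 2 := one_le_pow₀ (one_le_Gam hk _)
  have hD : 1 ≤ wt k 0 * k.p.l 0 := one_le_mul_of_one_le_of_one_le hw hl0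
  have hΛ0 : 0 ≤ k.Λ := by linarith
  rw [mul_assoc k.Λ, mul_assoc k.Λ]
  rcases Nat.eq_zero_or_pos j with rfl | hj
  · exact ⟨mul_le_mul_of_nonneg_left
      (le_mul_of_one_le_right (by positivity) (one_le_mul_of_one_le_of_one_le hl hG)) hΛ0, mul_le_mul_of_nonneg_left
      ((le_mul_of_one_le_right (by positivity) hl0).trans (le_mul_of_one_le_right (by positivity) hG)) hΛ0⟩
  · have h1 : wt k j ≤ k.Gam (i + j) ^ 2 := by
      have hΓ : 0 ≤ k.Γ₁ := by linarith [hk.one.1, hk.gam.1]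
      rw [wt, if_neg hj.ne', pow_zero, one_mul, Cons.Gam, Cons.Gam, if_neg hj.ne', if_neg (by omega)]
      gcongr
      · norm_num
      · omega
    have h2 : (k.p.l j : ℝ) ≤ k.p.l (i + j) := by
      have : k.p.l j ≤ k.p.l (i + j) :=
        Nat.mul_le_mul_left _ (Nat.pow_le_pow_right (by have := hk.pok.1; omega) (by omega))
      exact_mod_cast this
    refine ⟨mul_le_mul_of_nonneg_left (le_trans ?_ (le_mul_of_one_le_left (by positivity) hD)) hΛ0,
      mul_le_mul_of_nonneg_left (h1.trans (le_mul_of_one_le_left (by positivity) hD)) hΛ0⟩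
    rw [mul_comm]
    exact mul_le_mul h2 h1 (by linarith [one_le_wt hk j]) (by positivity)

theorem del_le (hk : ConsOK R k) {α : ℝ} (hα : 0 ≤ α) (hB : B = k.Λ * (wt k 0 * k.p.l 0) * α) (j i : ℕ) {s : St Site Al}
    (hs : Good R k (i + j) s (α * vth ^ (i + j))) :
    |(del (k.p.l (i + j)) s.K).1| ≤ bn k B j / 2 * vth ^ i ∧ |(del (k.p.l (i + j)) s.K).2| ≤ bz k B j / 2 * vth ^ i := by
  obtain ⟨h1, h2⟩ := del_bound hk (i + j) hs.sym hs.K
  obtain ⟨h3, h4⟩ := wt_le hk j i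
  have hw := one_le_wt hk j
  have hl := one_le_l' hk j
  have hl' := one_le_l' hk (i + j)
  have hG := one_le_Gam hk (i + j)
  have hv : 0 ≤ α * vth ^ (i + j) := mul_nonneg hα (pow_pos vth_pos _).le
  refine ⟨h1.trans ?_, h2.trans ?_⟩
  · rw [show bn k B j / 2 * vth ^ i = k.Λ * (wt k 0 * k.p.l 0) * (α * vth ^ (i + j)) / (4 * (wt k j * k.p.l j)) by
      rw [bn, bz, hB, pow_add]; field_simp; ring, div_le_div_iff₀ (by positivity) (by positivity)]
    nlinarith [mul_le_mul_of_nonneg_left h3 hv]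
  · rw [show bz k B j / 2 * vth ^ i = k.Λ * (wt k 0 * k.p.l 0) * (α * vth ^ (i + j)) / (4 * wt k j) by
      rw [bz, hB, pow_add]; field_simp; ring, div_le_div_iff₀ (by positivity) (by positivity)]
    nlinarith [mul_le_mul_of_nonneg_left h4 hv]

theorem qq_add (u v : ℝ × ℝ) (x : Site) : qq (u + v) x = qq u x + qq v x := by
  simp only [qq, Prod.fst_add, Prod.snd_add, add_smul]
  abel

/-- where the clamps are inactive the clamped flow is the true flow -/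
theorem cf_eq (hk : ConsOK R k) (hV : PotOK R V) (hB : 0 ≤ B) (hB' : B ≤ 1 / 10) {t : ℝ × ℝ}
    (hs : ∀ j, Sym (cf R k V J lam B t j).1) (hc : ∀ j, cl k B j (cf R k V J lam B t j).2 = (cf R k V J lam B t j).2) :
    ∀ j, (gPl0 R k.Gam).st k.p t (betaOf J t * lam) V j = (cf R k V J lam B t j).1 := by
  intro j
  induction j with
  | zero =>
    have h0 : cl k B 0 t = t := hc 0
    change _ = (gPl0 R k.Gam).s0 k.p (cl k B 0 t) (betaOf J (cl k B 0 t) * lam) V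
    rw [h0]
    rfl
  | succ j ih =>
    have h1 : (gPl0 R k.Gam).st k.p t (betaOf J t * lam) V (j + 1) =
        ((gPl0 R k.Gam).sp k.p j).next geoZ augE (cf R k V J lam B t j).1 := by
      rw [← ih]
      rfl
    have h2 : ((gPl0 R k.Gam).st k.p t (betaOf J t * lam) V (j + 1)).q = (cf R k V J lam B t (j + 1)).1.q := by
      funext x
      rw [(st_q_succ hk.pok (initOK_plane hk t k.Gam (fun _ => 1) ((0, 0), 0)).1 _ V j x).1, ih, cf_q hk hB hB' t (j + 1),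
        hc (j + 1), loc2G_plane]
      have h3 : toEv (loc2 x) (Fx (k.p.l j) (fun Y => (cf R k V J lam B t j).1.K Y + sgl (cf R k V J lam B t j).1.q Y) x) =
          qq (cf R k V J lam B t (j + 1)).2 x := by
        rw [Fx_sgl, map_add, loc2_Fx hk.pok hV (hs j), cf_q hk hB hB' t j, hc j, loc2_qq, add_comm, ← qq_add]
        rfl
      rw [← h3, Fx, map_sum]
      refine Finset.sum_congr rfl fun Y _ => ?_
      split_ifs
      · rw [map_smul]
      · rw [map_zero]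
    rw [h1] at h2 ⊢
    change _ = setq _ _
    change _ = qq _ at h2
    rw [setq, ← h2]

theorem exists_tuned (hk : ConsOK R k) (hV : PotOK R V) {α Q : ℝ} (hα : 0 ≤ α) (hB : B = k.Λ * (wt k 0 * k.p.l 0) * α)
    (hB' : B ≤ 1 / 10) (hQ : 9 * k.Λ ≤ Q) (h1 : α ≤ k.ε) (h2 : Q * B ≤ k.ε) (h3 : k.C * (α + Q * B) ^ 2 ≤ 3 / 64 * α)
    (h0 : ∀ c : ℝ × ℝ, |c.1| + |c.2| ≤ B →
      geoZ.PN ((gPl0 R k.Gam).Bd k.p 0) k.p.l0 k.a ((gPl0 R k.Gam).s0 k.p c (betaOf J c * lam) V).K α ∧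
      geoZ.SN ((gPl0 R k.Gam).Bd k.p 0) k.p.l0 ((gPl0 R k.Gam).s0 k.p c (betaOf J c * lam) V).q (Q * B)) :
    ∃ c : ℝ × ℝ, |c.1| + |c.2| ≤ B ∧ Tuned k R V c (betaOf J c * lam) B := by
  have hB0 : 0 ≤ B := by
    have := hk.one.2.1
    have := one_le_wt hk 0
    rw [hB]
    positivity
  have hl : k.p.l 0 = k.p.l0 := by simp [Par.l]
  have hg : ∀ t j, Good R k j (cf R k V J lam B t j).1 (α * vth ^ j) := fun t =>
    cf_good hk hV hB0 hB' hα hQ h1 h2 h3 t (by rw [hl]; exact h0 _ (cl_zero hk hB0 t))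
  have hd := fun t j i => del_le hk hα hB j i (hg t (i + j))
  have hsum : ∀ b : ℝ, Summable fun n => b / 2 * vth ^ n := fun b =>
    (summable_geometric_of_lt_one vth_pos.le (by norm_num [vth])).mul_left _
  obtain ⟨t, ht1, ht2⟩ := shooting (fun n t => del (k.p.l n) (cf R k V J lam B t n).1.K)
    (fun n => del_cont (cf_cts hk hB0 hB' n).1.K _) _ _ (fun n t => (hd t 0 n).1) (fun n t => (hd t 0 n).2)
    (hsum _) (hsum _)
  have hc : ∀ j, cl k B j (cf R k V J lam B t j).2 = (cf R k V J lam B t j).2 := by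
    intro j
    have e1 := tail_le (fun j i => (hd t j i).1) ht1 j
    have e2 := tail_le (fun j i => (hd t j i).2) ht2 j
    refine Prod.ext (clamp_of_le ?_) (clamp_of_le ?_)
    · rw [cf_u, Prod.fst_add, Prod.fst_sum]
      exact e1
    · rw [cf_u, Prod.snd_add, Prod.snd_sum]
      exact e2
  have he := cf_eq hk hV hB0 hB' (fun j => (hg t j).sym) hc
  refine ⟨t, ?_, fun j => (cf R k V J lam B t j).2.1, fun j => (cf R k V J lam B t j).2.2, rfl, rfl, fun j => ⟨fun x => ?_, ?_⟩⟩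
  · have := cl_zero hk hB0 t
    rwa [show cl k B 0 t = t from hc 0] at this
  · rw [he, cf_q hk hB0 hB', hc]
    rfl
  · have := cl_bound hk hB0 j (cf R k V J lam B t j).2
    rwa [hc, wt, ← mul_assoc] at this

end Crest.Agent.R165.D5
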