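import Crest.Agent.R165.D5.Flow

/-! # R165 block D5: constants and tuning of the plane flow
(statements FROZEN, auxiliaries in namespace `R165.D5`). route.md §D5. `exists_cons`, `geoOK_plane`, `initOK_plane` are in `D5/Cons.lean`. -/

set_option autoImplicit false
noncomputable section
open Classical

namespace Crest.Agent.R165

/-- **tuning** -/
theorem tune {J : ℝ} (hJ : 0 < J) {R : ℕ} {k : Cons} (hk : ConsOK R k) {V : Finset Site → ℝ} (hV : PotOK R V) :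
    ∃ lam₀ B₀ : ℝ, 0 < lam₀ ∧ 0 < B₀ ∧ ∀ lam, |lam| < lam₀ → ∃ c : ℝ × ℝ,
      |c.1| ≤ B₀ * |lam| ∧ |c.2| ≤ B₀ * |lam| ∧ |c.1| ≤ 1 / 10 ∧ |c.2| ≤ 1 / 10 ∧
      |betaOf J c - Crest.ProbabilityR.IsingModel.criticalBeta J| ≤ B₀ * |lam| ∧ |betaOf J c * lam| ≤ B₀ * |lam| ∧
      Real.exp (-2 * betaOf J c * J) = tOf c ∧ Tuned k R V c (betaOf J c * lam) (B₀ * |lam|) := by
  obtain ⟨C₀, ε₀, hC₀, hε₀, h0⟩ := s0_bound hk hV
  have hΛ := hk.one.2.1
  have hC := hk.one.2.2.2.1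
  have hε := hk.one.2.2.2.2.1
  have hw := D5.one_le_wt hk 0
  have hl := D5.one_le_l' hk 0
  obtain ⟨β₁, hβ₁⟩ : ∃ β₁, β₁ = |Crest.ProbabilityR.IsingModel.criticalBeta J| + 2 / J := ⟨_, rfl⟩
  have hβ : 0 < β₁ := by rw [hβ₁]; positivity
  obtain ⟨D, hD⟩ : ∃ D, D = k.Λ * (D5.wt k 0 * k.p.l 0) := ⟨_, rfl⟩
  have hD0 : 0 < D := by rw [hD]; positivity
  obtain ⟨Q, hQ⟩ : ∃ Q, Q = C₀ + 9 * k.Λ := ⟨_, rfl⟩
  have hQ0 : 0 < Q := by rw [hQ]; positivity
  obtain ⟨A, hA⟩ : ∃ A, A = C₀ * β₁ := ⟨_, rfl⟩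
  have hA0 : 0 < A := by rw [hA]; positivity
  have hev : ∀ (a b : ℝ), 0 < b → ∀ᶠ s in nhds (0 : ℝ), a * s ≤ b := fun a b hb =>
    ((by fun_prop : Continuous fun s : ℝ => a * s).continuousAt.eventually_lt continuousAt_const
      (by simpa using hb)).mono fun s hs => le_of_lt hs
  obtain ⟨lam₀, hlam₀, hsm⟩ := Metric.eventually_nhds_iff.1 ((hev (D * A) (1 / 10) (by norm_num)).and
    ((hev (D * A) ε₀ hε₀).and ((hev β₁ ε₀ hε₀).and ((hev A k.ε hε).and ((hev (Q * (D * A)) k.ε hε).and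
      (hev (k.C * (1 + Q * D) ^ 2 * A) (3 / 64) (by norm_num)))))))
  refine ⟨lam₀, D * A + 2 / J * (D * A) + β₁, hlam₀, by positivity, fun lam hlam => ?_⟩
  obtain ⟨s1, s2, s3, s4, s5, s6⟩ := hsm (y := |lam|) (by simpa using hlam)
  have hl0 := abs_nonneg lam
  have hμ : ∀ c : ℝ × ℝ, |c.1| + |c.2| ≤ D * A * |lam| → |c.1| ≤ D * A * |lam| ∧ |c.2| ≤ D * A * |lam| ∧
      |betaOf J c * lam| ≤ β₁ * |lam| := by
    intro c hc
    have c1 : |c.1| ≤ D * A * |lam| := by linarith [abs_nonneg c.2]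
    have c2 : |c.2| ≤ D * A * |lam| := by linarith [abs_nonneg c.1]
    refine ⟨c1, c2, ?_⟩
    have b1 := (D5.beta_facts hJ (c1.trans s1) (c2.trans s1)).1
    have b2 : 2 / J * |c.1| ≤ 2 / J := mul_le_of_le_one_right (by positivity) (by linarith)
    have b3 := abs_sub_abs_le_abs_sub (betaOf J c) (Crest.ProbabilityR.IsingModel.criticalBeta J)
    rw [abs_mul]
    exact mul_le_mul_of_nonneg_right (by linarith) hl0
  obtain ⟨c, hc, ν, z, hν, hz, ht⟩ := D5.exists_tuned (J := J) (lam := lam) (B := D * A * |lam|) (α := A * |lam|) (Q := Q) hk hV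
    (by positivity) (by rw [hD]; ring) s1 (by linarith) s4 (by linarith) (by
      calc _ = k.C * (1 + Q * D) ^ 2 * A * |lam| * (A * |lam|) := by ring
        _ ≤ _ := mul_le_mul_of_nonneg_right s6 (by positivity)) fun c hc => by
      obtain ⟨c1, c2, c3⟩ := hμ c hc
      obtain ⟨e1, -, e3⟩ := h0 (gPl0 R k.Gam) c (betaOf J c * lam) 0 (initOK_plane hk c k.Gam (fun _ => 1) ((0, 0), 0)).1
        rfl (c1.trans s2) (c2.trans s2) (c3.trans s3) le_rfl hε₀.le (Or.inl rfl) (Or.inl rfl)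
      refine ⟨D5.PN_mono e1 ?_, D5.SN_mono e3 ?_⟩
      · rw [hA, mul_assoc]
        exact mul_le_mul_of_nonneg_left c3 (by linarith)
      · exact mul_le_mul (by linarith) hc (by positivity) hQ0.le
  obtain ⟨c1, c2, c3⟩ := hμ c hc
  obtain ⟨b1, b2⟩ := D5.beta_facts hJ (c1.trans s1) (c2.trans s1)
  have p1 : 0 ≤ D * A * |lam| := by positivity
  have p2 : 0 ≤ 2 / J * (D * A * |lam|) := by positivity
  have p3 : 0 ≤ β₁ * |lam| := by positivity
  have p4 : 2 / J * |c.1| ≤ 2 / J * (D * A * |lam|) := mul_le_mul_of_nonneg_left c1 (by positivity)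
  have e : (D * A + 2 / J * (D * A) + β₁) * |lam| = D * A * |lam| + 2 / J * (D * A * |lam|) + β₁ * |lam| := by ring
  rw [e]
  refine ⟨c, by linarith, by linarith, c1.trans s1, c2.trans s1, by linarith, by linarith, b2, ν, z, hν, hz, fun j =>
    ⟨(ht j).1, (ht j).2.trans ?_⟩⟩
  exact mul_le_mul_of_nonneg_right (by linarith) (pow_pos D5.vth_pos j).le

end Crest.Agent.R165
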