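import Crest.Agent.R165.D5.Alg

/-! # R165/D5 (owner helper31): one step of the plane flow -/

set_option autoImplicit false
noncomputable section
open Classical

namespace Crest.Agent.R165.D5

variable {R : ℕ} {k : Cons}

theorem one_le_l (hk : ConsOK R k) (j : ℕ) : 1 ≤ k.p.l j := by
  exact Nat.mul_pos hk.pok.2.2.1 (Nat.pow_pos (by have := hk.pok.1; omega))

/-- `(geoOK_plane hk j).1.gam` -/
theorem one_le_Gam (hk : ConsOK R k) (j : ℕ) : 1 ≤ k.Gam j := by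
  exact hk.one.1.trans (geoOK_plane hk j).1.gam.1

theorem stepa_del {Bd : Finset Site → Al → ℝ → Prop} {l : ℕ} {a α β d : ℝ} (ha : 1 ≤ a) (hβ : 0 ≤ β) {K : Finset Site → Al}
    (hK : geoZ.PN Bd l a K α) (φ : Site → Gr Ix →ₗ[ℝ] ℝ)
    (hφ : ∀ Z x c, geoZ.Small l Z → x ∈ Z → Bd Z (K Z) c → |φ x (K Z : Gr Ix)| ≤ β * c)
    (hd : ∀ x, φ x (Fx l K x : Gr Ix) = d) : |d| * (4 * (l : ℝ) ^ 2) ≤ β * α := by
  refine le_trans ?_ (sum_small_le geoZ ha hβ hK (fun x Z => φ x (K Z : Gr Ix)) hφ 0)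
  refine le_trans ?_ (Finset.card_nsmul_le_sum _ _ |d| fun x _ => ?_)
  · rw [geoZ_ball, card_box, nsmul_eq_mul, mul_comm]
    refine mul_le_mul_of_nonneg_right ?_ (abs_nonneg _)
    push_cast
    nlinarith [Nat.cast_nonneg (α := ℝ) l]
  · rw [← hd x, Fx, AddSubmonoidClass.coe_finsetSum, map_sum, geoZ_ball]
    refine (Finset.abs_sum_le_sum_abs _ _).trans (Finset.sum_le_sum fun Y _ => le_of_eq ?_)
    split_ifs
    · rw [Subalgebra.coe_smul, map_smul, smul_eq_mul, abs_mul, abs_of_nonneg (by positivity)]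
    · simp

/-- `sum_small_le` with `φ x Z = nuF (K Z)` resp. `zF x (K Z)`, `StepOK.coup`; the inner sum dominates `|nuF (Fx l K x)| = |(del l K).1|`
(`Fx_nu`, `map_sum`, `Finset.abs_sum_le_sum_abs`) for every `x`, and `(box 0 l).card = (2 l + 1)² ≥ 4 l²` (`card_box`) -/
theorem del_bound (hk : ConsOK R k) (j : ℕ) {s : St Site Al} (hs : Sym s) {α : ℝ}
    (hK : geoZ.PN ((gPl0 R k.Gam).Bd k.p j) (k.p.l j) k.a s.K α) :
    |(del (k.p.l j) s.K).1| ≤ k.Λ * α / (4 * k.p.l j * k.Gam j ^ 2) ∧ |(del (k.p.l j) s.K).2| ≤ k.Λ * α / (4 * k.Gam j ^ 2) := by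
  have hl : (1 : ℝ) ≤ k.p.l j := by exact_mod_cast one_le_l hk j
  have hΓ := one_le_Gam hk j
  have hΛ := hk.one.2.1
  have ha : 1 ≤ k.a := by linarith [hk.one.2.2.1]
  have hc := @(hk.step _ j (geoOK_plane hk j).1).coup rfl rfl
  have h1 := stepa_del ha (β := k.Λ * k.p.l j / k.Gam j ^ 2) (by positivity) hK (fun _ => nuF)
    (fun Z x c h1 h2 h3 => (hc h1 h2 h3).1.trans_eq (by change _ / k.Gam j ^ 2 = _; ring)) fun x => (Fx_nu hs _ x).1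
  have h2 := stepa_del ha (β := k.Λ * (k.p.l j : ℝ) ^ 2 / k.Gam j ^ 2) (by positivity) hK zF
    (fun Z x c h1 h2 h3 => (hc h1 h2 h3).2.trans_eq (by change _ / k.Gam j ^ 2 = _; ring)) fun x => (Fx_nu hs _ x).2
  rw [← le_div_iff₀ (by positivity)] at h1 h2
  exact ⟨h1.trans_eq (by field_simp), h2.trans_eq (by field_simp)⟩

/-- `StepOK.mkn`, `bulk_plane`, `bdAx_BdU`, `(2 l + 1)² ≤ 9 l²` -/
theorem qq_SN (hk : ConsOK R k) (j : ℕ) (u : ℝ × ℝ) :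
    geoZ.SN ((gPl0 R k.Gam).Bd k.p (j + 1)) (k.p.l (j + 1)) (qq u)
      (9 * k.Λ * ((|u.1| * k.p.l (j + 1) + |u.2|) * k.Gam (j + 1) ^ 2)) := by
  have hl : (1 : ℝ) ≤ k.p.l (j + 1) := by exact_mod_cast one_le_l hk (j + 1)
  have hΛ := hk.one.2.1
  have hax := bdAx_BdU ((gPl0 R k.Gam).U k.p (j + 1))
  refine ⟨fun _ => |u.1| * (k.Λ * k.Gam (j + 1) ^ 2 / k.p.l (j + 1)) + |u.2| * (k.Λ * k.Gam (j + 1) ^ 2 / (k.p.l (j + 1) : ℝ) ^ 2),
    fun x => ⟨by positivity, ?_⟩, fun y => ?_⟩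
  · obtain ⟨h1, h2⟩ := (hk.step _ j (geoOK_plane hk j).1).mkn x (bulk_plane _ _ _ _ x)
    exact hax.add (hax.smul u.1 h1) (hax.smul u.2 h2)
  · rw [Finset.sum_const, geoZ_ball, card_box, nsmul_eq_mul]
    have h9 : (((2 * k.p.l (j + 1) + 1) ^ 2 : ℕ) : ℝ) ≤ 9 * (k.p.l (j + 1) : ℝ) ^ 2 := by
      push_cast
      nlinarith
    refine (mul_le_mul_of_nonneg_right h9 (by positivity)).trans_eq ?_
    field_simp

end Crest.Agent.R165.D5
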